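import Vale.Agent.Lib.P208.Defs

/-! P208: subsets and limits. -/

namespace Vale.Agent.P208

open Filter Topology

/-- subsets of doubling sets are doubling -/
theorem doubling_subset {N : ℕ} {X F : Set Hil} (hX : DoublingLE N X) (hF : F ⊆ X) :
    DoublingLE (N * N) F := by
  classical
  intro x hx r hr
  obtain ⟨T1, h1, h2, h3⟩ := hX x (hF hx) r hr
  have hT : ∀ z : Hil, ∃ T : Finset Hil, T.card ≤ N ∧
      (z ∈ T1 → ∀ y ∈ X, dist y z ≤ r / 2 → ∃ w ∈ T, dist y w ≤ r / 2 / 2) := by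
    intro z
    by_cases hz : z ∈ T1
    · obtain ⟨T, _, h5, h6⟩ := hX z (h1 z hz) (r / 2) (by linarith)
      exact ⟨T, h5, fun _ => h6⟩
    · exact ⟨∅, by simp, fun h => absurd h hz⟩
  choose T2 h4 h5 using hT
  let W : Finset Hil := T1.biUnion T2
  have hW : W.card ≤ N * N := by
    calc W.card ≤ T1.card * N := Finset.card_biUnion_le_card_mul _ _ _ (fun z _ => h4 z)
      _ ≤ N * N := Nat.mul_le_mul_right _ h2
  have hg : ∀ w : Hil, ∃ p : Hil, (∃ y ∈ F, dist y w ≤ r / 4) → p ∈ F ∧ dist p w ≤ r / 4 := by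
    intro w
    by_cases h : ∃ y ∈ F, dist y w ≤ r / 4
    · obtain ⟨y, hy, hyw⟩ := h
      exact ⟨y, fun _ => ⟨hy, hyw⟩⟩
    · exact ⟨0, fun h' => absurd h' h⟩
  choose g hg using hg
  refine ⟨(W.filter fun w => ∃ y ∈ F, dist y w ≤ r / 4).image g, ?_, ?_, ?_⟩
  · intro z hz
    obtain ⟨w, hw, rfl⟩ := Finset.mem_image.1 hz
    exact (hg w (Finset.mem_filter.1 hw).2).1
  · exact (Finset.card_image_le.trans (Finset.card_filter_le _ _)).trans hW
  · intro y hy hyx
    obtain ⟨z, hz, hyz⟩ := h3 y (hF hy) hyx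
    obtain ⟨w, hw, hyw⟩ := h5 z hz y (hF hy) hyz
    have hyw' : dist y w ≤ r / 4 := by linarith
    have hex : ∃ y ∈ F, dist y w ≤ r / 4 := ⟨y, hy, hyw'⟩
    refine ⟨g w, Finset.mem_image.2 ⟨w, Finset.mem_filter.2 ⟨Finset.mem_biUnion.2 ⟨z, hz, hw⟩,
      hex⟩, rfl⟩, ?_⟩
    have h7 := (hg w hex).2
    have h8 := dist_triangle_right y (g w) w
    linarith

/-- normalized embedding -/
theorem embeds_norm {X : Set Hil} {k : ℕ} {D : ℝ} (h : Embeds X k D) (x0 : Hil) :
    ∃ g : Hil → EuclideanSpace ℝ (Fin k), g x0 = 0 ∧ ∀ x ∈ X, ∀ y ∈ X,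
      dist x y ≤ dist (g x) (g y) ∧ dist (g x) (g y) ≤ D * dist x y := by
  obtain ⟨f, a, ha, hf⟩ := h
  refine ⟨fun x => a⁻¹ • (f x - f x0), by simp, fun x hx y hy => ?_⟩
  have e : dist (a⁻¹ • (f x - f x0)) (a⁻¹ • (f y - f x0)) = a⁻¹ * dist (f x) (f y) := by
    rw [dist_smul₀, dist_sub_right, Real.norm_eq_abs, abs_of_pos (inv_pos.2 ha)]
  obtain ⟨h1, h2⟩ := hf x hx y hy
  simp only [e]
  constructor
  · calc dist x y = a⁻¹ * (a * dist x y) := by field_simp
      _ ≤ _ := mul_le_mul_of_nonneg_left h1 (inv_pos.2 ha).le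
  · calc a⁻¹ * dist (f x) (f y) ≤ a⁻¹ * (D * a * dist x y) :=
        mul_le_mul_of_nonneg_left h2 (inv_pos.2 ha).le
      _ = D * dist x y := by field_simp

/-- compactness: an embedding of all finite subsets with the same constants -/
theorem embeds_of_finite {X : Set Hil} {k : ℕ} {D : ℝ}
    (h : ∀ F : Set Hil, F ⊆ X → F.Finite → Embeds F k D) : Embeds X k D := by
  classical
  rcases X.eq_empty_or_nonempty with rfl | ⟨x0, hx0⟩
  · exact h ∅ (Set.Subset.refl _) Set.finite_empty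
  have h1 : ∀ S : Finset X, ∃ g : Hil → EuclideanSpace ℝ (Fin k), g x0 = 0 ∧
      ∀ x : Hil, ∀ hx : x ∈ X, ∀ y : Hil, ∀ hy : y ∈ X, (x = x0 ∨ (⟨x, hx⟩ : X) ∈ S) →
        (y = x0 ∨ (⟨y, hy⟩ : X) ∈ S) →
        dist x y ≤ dist (g x) (g y) ∧ dist (g x) (g y) ≤ D * dist x y := by
    intro S
    have hfin : (insert x0 (Subtype.val '' (S : Set X))).Finite :=
      (S.finite_toSet.image _).insert _
    have hsub : insert x0 (Subtype.val '' (S : Set X)) ⊆ X := by
      intro z hz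
      rcases hz with rfl | ⟨w, _, rfl⟩
      · exact hx0
      · exact w.2
    obtain ⟨g, hg0, hg⟩ := embeds_norm (h _ hsub hfin) x0
    have hm : ∀ z : Hil, ∀ hz : z ∈ X, (z = x0 ∨ (⟨z, hz⟩ : X) ∈ S) →
        z ∈ insert x0 (Subtype.val '' (S : Set X)) := by
      rintro z hz (rfl | h)
      · exact Or.inl rfl
      · exact Or.inr ⟨⟨z, hz⟩, h, rfl⟩
    exact ⟨g, hg0, fun x hx y hy h1 h2 => hg x (hm x hx h1) y (hm y hy h2)⟩
  choose g hg0 hg using h1
  let U : Ultrafilter (Finset X) := Ultrafilter.of atTop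
  have hU : (U : Filter (Finset X)) ≤ atTop := Ultrafilter.of_le _
  have hev : ∀ x : Hil, ∀ hx : x ∈ X, ∀ᶠ S in (U : Filter (Finset X)), (⟨x, hx⟩ : X) ∈ S := by
    intro x hx
    have : ∀ᶠ S in (atTop : Filter (Finset X)), (⟨x, hx⟩ : X) ∈ S := by
      filter_upwards [eventually_ge_atTop ({⟨x, hx⟩} : Finset X)] with S hS
      exact hS (Finset.mem_singleton_self _)
    exact hU this
  have hlim : ∀ x : Hil, ∃ l : EuclideanSpace ℝ (Fin k), x ∈ X →
      Tendsto (fun S => g S x) (U : Filter (Finset X)) (𝓝 l) := by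
    intro x
    by_cases hx : x ∈ X
    · have hc : IsCompact (Metric.closedBall (0 : EuclideanSpace ℝ (Fin k)) (D * dist x x0)) :=
        isCompact_closedBall _ _
      have hb : ∀ᶠ S in (U : Filter (Finset X)),
          g S x ∈ Metric.closedBall (0 : EuclideanSpace ℝ (Fin k)) (D * dist x x0) := by
        filter_upwards [hev x hx] with S hS
        have := (hg S x hx x0 hx0 (Or.inr hS) (Or.inl rfl)).2
        rw [hg0 S] at this
        exact this
      obtain ⟨l, _, hl⟩ := hc.ultrafilter_le_nhds (U.map fun S => g S x)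
        (by rw [le_principal_iff]; exact hb)
      exact ⟨l, fun _ => hl⟩
    · exact ⟨0, fun h => absurd h hx⟩
  choose L hL using hlim
  refine ⟨L, 1, one_pos, fun x hx y hy => ?_⟩
  have ht : Tendsto (fun S => dist (g S x) (g S y)) (U : Filter (Finset X))
      (𝓝 (dist (L x) (L y))) := (hL x hx).dist (hL y hy)
  have hb : ∀ᶠ S in (U : Filter (Finset X)), dist x y ≤ dist (g S x) (g S y) ∧
      dist (g S x) (g S y) ≤ D * dist x y := by
    filter_upwards [hev x hx, hev y hy] with S h1 h2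
    exact hg S x hx y hy (Or.inr h1) (Or.inr h2)
  constructor
  · rw [one_mul]
    exact ge_of_tendsto ht (hb.mono fun S h => h.1)
  · rw [mul_one]
    exact le_of_tendsto ht (hb.mono fun S h => h.2)

end Vale.Agent.P208
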