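import Mathlib

/-! P208 (Lang-Plaut): definitions. -/

namespace Vale.Agent.P208

/-- real separable Hilbert space: square-summable real sequences -/
abbrev Hil : Type := lp (fun _ : ℕ => ℝ) 2

/-- every ball of `X` is covered by at most `N` balls of half its radius, all centers in `X` -/
def DoublingLE (N : ℕ) (X : Set Hil) : Prop :=
  ∀ x ∈ X, ∀ r : ℝ, 0 < r → ∃ T : Finset Hil, (∀ z ∈ T, z ∈ X) ∧ T.card ≤ N ∧
    ∀ y ∈ X, dist y x ≤ r → ∃ z ∈ T, dist y z ≤ r / 2

/-- `X` has a bi-Lipschitz embedding into `k`-dimensional Euclidean space with distortion at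
most `D` -/
def Embeds (X : Set Hil) (k : ℕ) (D : ℝ) : Prop :=
  ∃ (f : Hil → EuclideanSpace ℝ (Fin k)) (a : ℝ), 0 < a ∧ ∀ x ∈ X, ∀ y ∈ X,
    a * dist x y ≤ dist (f x) (f y) ∧ dist (f x) (f y) ≤ D * a * dist x y

end Vale.Agent.P208
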