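import Vale.Agent.Lib.P208.Compact

/-! P208: gluing countably many finite doubling sets. -/

namespace Vale.Agent.P208

open Filter Topology

theorem embeds_mono {X : Set Hil} {k : ℕ} {D E : ℝ} (hDE : D ≤ E) (h : Embeds X k D) :
    Embeds X k E := by
  obtain ⟨f, a, ha, hf⟩ := h
  refine ⟨f, a, ha, fun x hx y hy => ⟨(hf x hx y hy).1, (hf x hx y hy).2.trans ?_⟩⟩
  have : 0 ≤ a * dist x y := mul_nonneg ha.le dist_nonneg
  nlinarith

theorem embeds_empty (k : ℕ) (D : ℝ) : Embeds ∅ k D :=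
  ⟨fun _ => 0, 1, one_pos, fun x hx => absurd hx (Set.notMem_empty x)⟩

/-- a unit vector -/
theorem exists_unit : ∃ e : Hil, ‖e‖ = 1 := by
  refine ⟨lp.single 2 (0 : ℕ) (1 : ℝ), ?_⟩
  rw [lp.norm_single (by norm_num)]
  simp

/-- scaling a finite set into a small ball -/
theorem exists_scale (X : Set Hil) (hfin : X.Finite) (x0 : Hil) :
    ∃ c : ℝ, 0 < c ∧ ∀ x ∈ X, ‖c • (x - x0)‖ ≤ 1 / 8 := by
  obtain ⟨M, hM⟩ := (hfin.image fun x => ‖x - x0‖).bddAbove
  have hM' : ∀ x ∈ X, ‖x - x0‖ ≤ |M| + 1 := fun x hx =>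
    (hM ⟨x, hx, rfl⟩).trans ((le_abs_self M).trans (by linarith))
  have hp : 0 < |M| + 1 := by positivity
  refine ⟨1 / (8 * (|M| + 1)), by positivity, fun x hx => ?_⟩
  rw [norm_smul, Real.norm_eq_abs, abs_of_pos (by positivity)]
  calc 1 / (8 * (|M| + 1)) * ‖x - x0‖ ≤ 1 / (8 * (|M| + 1)) * (|M| + 1) :=
      mul_le_mul_of_nonneg_left (hM' x hx) (by positivity)
    _ = 1 / 8 := by field_simp

/-- gluing: similar copies of countably many finite sets in one doubling set -/
theorem glue {N : ℕ} (X : ℕ → Set Hil) (hfin : ∀ n, (X n).Finite) (hne : ∀ n, (X n).Nonempty)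
    (hd : ∀ n, DoublingLE N (X n)) :
    ∃ U : Set Hil, U.Countable ∧ DoublingLE (N + 3) U ∧
      (∀ R : ℝ, (U ∩ Metric.closedBall 0 R).Finite) ∧
      ∀ n, ∃ (v x0 : Hil) (c : ℝ), 0 < c ∧ ∀ x ∈ X n, v + c • (x - x0) ∈ U := by
  classical
  obtain ⟨e, he⟩ := exists_unit
  choose x0 hx0 using hne
  choose c hc hcX using fun n => exists_scale (X n) (hfin n) (x0 n)
  let v : ℕ → Hil := fun n => (8 : ℝ) ^ (n + 1) • e
  let φ : ℕ → Hil → Hil := fun n x => v n + c n • (x - x0 n)
  have hv : ∀ n, ‖v n‖ = (8 : ℝ) ^ (n + 1) := by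
    intro n
    simp only [v]
    rw [norm_smul, he, mul_one, Real.norm_eq_abs, abs_of_pos (by positivity)]
  have hφv : ∀ n, φ n (x0 n) = v n := by
    intro n; simp [φ]
  have hφd : ∀ n x, x ∈ X n → dist (φ n x) (v n) ≤ 1 / 8 := by
    intro n x hx
    rw [dist_eq_norm]
    have : φ n x - v n = c n • (x - x0 n) := by simp [φ]
    rw [this]; exact hcX n x hx
  have hφs : ∀ n x y, dist (φ n x) (φ n y) = c n * dist x y := by
    intro n x y
    simp only [φ]
    rw [dist_add_left, dist_smul₀, dist_sub_right, Real.norm_eq_abs, abs_of_pos (hc n)]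
  have hφn : ∀ n x, x ∈ X n → ‖φ n x‖ ≤ 8 ^ (n + 1) + 1 / 8 ∧ (8 : ℝ) ^ (n + 1) - 1 / 8 ≤ ‖φ n x‖ := by
    intro n x hx
    have h1 := hφd n x hx
    rw [dist_eq_norm] at h1
    have h2 := norm_sub_norm_le (φ n x) (v n)
    have h3 := norm_sub_norm_le (v n) (φ n x)
    rw [norm_sub_rev] at h3
    rw [hv n] at h2 h3
    constructor <;> linarith
  have hpow : ∀ a b : ℕ, a ≤ b → (8 : ℝ) ^ a ≤ 8 ^ b := fun a b h =>
    pow_le_pow_right₀ (by norm_num) h
  have hone : ∀ a : ℕ, (1 : ℝ) ≤ 8 ^ a := fun a => one_le_pow₀ (by norm_num)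
  let U : Set Hil := ⋃ n, φ n '' X n
  have hUm : ∀ y, y ∈ U ↔ ∃ m, ∃ x ∈ X m, φ m x = y := by
    intro y; simp only [U, Set.mem_iUnion, Set.mem_image]
  have hvU : ∀ m, v m ∈ U := fun m => (hUm _).2 ⟨m, x0 m, hx0 m, hφv m⟩
  refine ⟨U, Set.countable_iUnion fun n => ((hfin n).image _).countable, ?_, ?_, ?_⟩
  · intro y hy r hr
    obtain ⟨n, x, hx, rfl⟩ := (hUm y).1 hy
    have hn := hφn n x hx
    have h8 : (8 : ℝ) ^ (n + 1) = 8 * 8 ^ n := by ring
    have h1n := hone n
    rcases le_or_gt r (4 * 8 ^ n) with hr4 | hr4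
    · obtain ⟨T, hT1, hT2, hT3⟩ := hd n x hx (r / c n) (div_pos hr (hc n))
      refine ⟨T.image (φ n), ?_, ?_, ?_⟩
      · intro z hz
        obtain ⟨w, hw, rfl⟩ := Finset.mem_image.1 hz
        exact (hUm _).2 ⟨n, w, hT1 w hw, rfl⟩
      · exact Finset.card_image_le.trans (by omega)
      · intro y' hy' hyy
        obtain ⟨m, x', hx', rfl⟩ := (hUm y').1 hy'
        have hm := hφn m x' hx'
        have h2 := norm_sub_norm_le (φ m x') (φ n x)
        have h3 := norm_sub_norm_le (φ n x) (φ m x')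
        rw [norm_sub_rev] at h3
        rw [dist_eq_norm] at hyy
        have hmn : m = n := by
          rcases lt_trichotomy m n with h | h | h
          · exfalso
            have := hpow (m + 1) n h
            linarith
          · exact h
          · exfalso
            have := hpow (n + 2) (m + 1) (by omega)
            have h9 : (8 : ℝ) ^ (n + 2) = 64 * 8 ^ n := by ring
            linarith
        subst hmn
        rw [← dist_eq_norm, hφs] at hyy
        have : dist x' x ≤ r / c m := by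
          rw [le_div_iff₀ (hc m)]; linarith
        obtain ⟨z, hz, hz2⟩ := hT3 x' hx' this
        refine ⟨φ m z, Finset.mem_image.2 ⟨z, hz, rfl⟩, ?_⟩
        rw [hφs]
        have h10 : c m * (r / c m / 2) = r / 2 := by
          have := (hc m).ne'
          field_simp
        rw [← h10]
        exact mul_le_mul_of_nonneg_left hz2 (hc m).le
    · obtain ⟨j, hj1, hj2⟩ := exists_nat_pow_near (x := 5 * r) (y := (8 : ℝ)) (by linarith)
        (by norm_num)
      refine ⟨{v (j - 1), v (j - 2), v (j - 3)}, ?_, ?_, ?_⟩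
      · intro z hz
        simp only [Finset.mem_insert, Finset.mem_singleton] at hz
        rcases hz with rfl | rfl | rfl <;> exact hvU _
      · exact Finset.card_le_three.trans (by omega)
      · intro y' hy' hyy
        obtain ⟨m, x', hx', rfl⟩ := (hUm y').1 hy'
        have hm := hφn m x' hx'
        have hmd := hφd m x' hx'
        have h2 := norm_sub_norm_le (φ m x') (φ n x)
        rw [dist_eq_norm] at hyy
        have hlt : (8 : ℝ) ^ (m + 1) < 8 ^ (j + 1) := by linarith
        have hmj : m + 1 < j + 1 := (pow_lt_pow_iff_right₀ (by norm_num)).1 hlt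
        rcases Nat.lt_or_ge (m + 2) j with h | h
        · refine ⟨v (j - 3), by simp, ?_⟩
          have e1 : j - 3 + 1 = j - 2 := by omega
          have h11 : (8 : ℝ) ^ (m + 1) ≤ 8 ^ (j - 2) := hpow _ _ (by omega)
          have h12 : (8 : ℝ) ^ j = 64 * 8 ^ (j - 2) := by
            have : j = (j - 2) + 2 := by omega
            conv_lhs => rw [this]
            ring
          have h13 := dist_le_norm_add_norm (φ m x') (v (j - 3))
          rw [hv, e1] at h13
          linarith
        · have : m = j - 1 ∨ m = j - 2 := by omega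
          rcases this with h | h
          · refine ⟨v (j - 1), by simp, ?_⟩
            rw [← h]; linarith
          · refine ⟨v (j - 2), by simp, ?_⟩
            rw [← h]; linarith
  · intro R
    obtain ⟨j, hj⟩ := pow_unbounded_of_one_lt (R + 1) (by norm_num : (1 : ℝ) < 8)
    refine Set.Finite.subset (Set.finite_iUnion fun i : Fin j => (hfin i).image (φ i)) ?_
    rintro y ⟨hy, hyR⟩
    obtain ⟨m, x', hx', rfl⟩ := (hUm y).1 hy
    have hm := hφn m x' hx'
    rw [Metric.mem_closedBall, dist_zero_right] at hyR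
    have hlt : (8 : ℝ) ^ (m + 1) < 8 ^ j := by linarith
    have hmj : m + 1 < j := (pow_lt_pow_iff_right₀ (by norm_num)).1 hlt
    exact Set.mem_iUnion.2 ⟨⟨m, by omega⟩, ⟨x', hx', rfl⟩⟩
  · intro n
    exact ⟨v n, x0 n, c n, hc n, fun x hx => (hUm _).2 ⟨n, x, hx, rfl⟩⟩

/-- embeddings pass to similar copies -/
theorem embeds_copy {X U : Set Hil} {k : ℕ} {D : ℝ} (h : Embeds U k D) (v x0 : Hil) (c : ℝ)
    (hc : 0 < c) (hX : ∀ x ∈ X, v + c • (x - x0) ∈ U) : Embeds X k D := by
  obtain ⟨f, a, ha, hf⟩ := h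
  refine ⟨fun x => f (v + c • (x - x0)), a * c, mul_pos ha hc, fun x hx y hy => ?_⟩
  have h1 := hf _ (hX x hx) _ (hX y hy)
  have e : dist (v + c • (x - x0)) (v + c • (y - x0)) = c * dist x y := by
    rw [dist_add_left, dist_smul₀, dist_sub_right, Real.norm_eq_abs, abs_of_pos hc]
  rw [e] at h1
  refine ⟨?_, ?_⟩
  · calc a * c * dist x y = a * (c * dist x y) := by ring
      _ ≤ _ := h1.1
  · calc dist (f (v + c • (x - x0))) (f (v + c • (y - x0))) ≤ D * a * (c * dist x y) := h1.2
      _ = D * (a * c) * dist x y := by ring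

theorem doubling_singleton (N : ℕ) : DoublingLE (N + 1) {(0 : Hil)} := by
  intro x hx r hr
  refine ⟨{0}, by simp, by simp, fun y hy _ => ⟨0, by simp, ?_⟩⟩
  rw [Set.mem_singleton_iff] at hy
  rw [hy, dist_self]; linarith

theorem doubling_mono {M N : ℕ} (h : M ≤ N) {X : Set Hil} (hX : DoublingLE M X) :
    DoublingLE N X := by
  intro x hx r hr
  obtain ⟨T, h1, h2, h3⟩ := hX x hx r hr
  exact ⟨T, h1, h2.trans h, h3⟩

/-- a universal countable locally finite set for each constant -/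
theorem universal (N : ℕ) :
    ∃ U : Set Hil, U.Countable ∧ DoublingLE (N + 4) U ∧
      (∀ R : ℝ, (U ∩ Metric.closedBall 0 R).Finite) ∧
      ∀ k D : ℕ, Embeds U k D → ∀ M : ℕ, M * M ≤ N → ∀ X : Set Hil, DoublingLE M X →
        Embeds X k D := by
  classical
  have hch : ∀ n : ℕ, ∃ F : Set Hil, F.Finite ∧ F.Nonempty ∧ DoublingLE (N + 1) F ∧
      (Embeds F (Nat.unpair n).1 (Nat.unpair n).2 → ∀ G : Set Hil, G.Finite →
        DoublingLE N G → Embeds G (Nat.unpair n).1 (Nat.unpair n).2) := by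
    intro n
    by_cases h : ∃ G : Set Hil, G.Finite ∧ DoublingLE N G ∧
        ¬ Embeds G (Nat.unpair n).1 (Nat.unpair n).2
    · obtain ⟨G, h1, h2, h3⟩ := h
      refine ⟨G, h1, ?_, doubling_mono (by omega) h2, fun h => absurd h h3⟩
      rw [Set.nonempty_iff_ne_empty]
      rintro rfl
      exact h3 (embeds_empty _ _)
    · refine ⟨{0}, Set.finite_singleton _, Set.singleton_nonempty _, doubling_singleton N,
        fun _ G hG hd => ?_⟩
      by_contra hc
      exact h ⟨G, hG, hd, hc⟩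
  choose F hF1 hF2 hF3 hF4 using hch
  obtain ⟨U, hU1, hU2, hU3, hU4⟩ := glue F hF1 hF2 hF3
  refine ⟨U, hU1, hU2, hU3, fun k D hUe M hM X hX => ?_⟩
  apply embeds_of_finite
  intro G hGX hGf
  obtain ⟨v, x0, c, hc, hcX⟩ := hU4 (Nat.pair k D)
  have h1 : Embeds (F (Nat.pair k D)) k D := embeds_copy hUe v x0 c hc hcX
  have h2 := hF4 (Nat.pair k D)
  rw [Nat.unpair_pair] at h2
  exact h2 h1 G hGf (doubling_mono hM (doubling_subset hX hGX))

end Vale.Agent.P208
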